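import Mathlib

/-!
# Base-`F` digits in the variable `X 1`

`F` a ternary cubic form over a field with nonzero coefficient at `(X 1)^3`.  Every form `P` of
degree `3 * b` is `∑ j ≤ b, F ^ (b - j) * G j` with `G j` a form of degree `3 * j` which has degree
at most two in `X 1`.
-/

open MvPolynomial

namespace Vale.Agent.P279.H693

variable {L : Type*} [Field L]

/-- `P` is `F * Q + R` with `R` of degree at most two in `X 1`, all homogeneous. -/
def Dv (F : MvPolynomial (Fin 3) L) (d : ℕ) (P : MvPolynomial (Fin 3) L) : Prop :=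
  ∃ Q R : MvPolynomial (Fin 3) L, Q.IsHomogeneous d ∧ R.IsHomogeneous (d + 3) ∧
    (∀ al ∈ R.support, al 1 ≤ 2) ∧ P = F * Q + R

lemma Dv.zero (F : MvPolynomial (Fin 3) L) (d : ℕ) : Dv F d 0 :=
  ⟨0, 0, isHomogeneous_zero _ _ _, isHomogeneous_zero _ _ _, by simp, by simp⟩

lemma Dv.add {F : MvPolynomial (Fin 3) L} {d : ℕ} {P P' : MvPolynomial (Fin 3) L}
    (h : Dv F d P) (h' : Dv F d P') : Dv F d (P + P') := by
  obtain ⟨Q, R, hQ, hR, hs, rfl⟩ := h
  obtain ⟨Q', R', hQ', hR', hs', rfl⟩ := h'
  refine ⟨Q + Q', R + R', hQ.add hQ', hR.add hR', ?_, by ring⟩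
  intro al hal
  rcases Finset.mem_union.1 (MvPolynomial.support_add hal) with h | h
  · exact hs al h
  · exact hs' al h

lemma Dv.cmul {F : MvPolynomial (Fin 3) L} {d : ℕ} {P : MvPolynomial (Fin 3) L}
    (h : Dv F d P) (c : L) : Dv F d (C c * P) := by
  obtain ⟨Q, R, hQ, hR, hs, rfl⟩ := h
  refine ⟨C c * Q, C c * R, ?_, ?_, ?_, by ring⟩
  · have := (isHomogeneous_C (Fin 3) c).mul hQ
    simpa using this
  · have := (isHomogeneous_C (Fin 3) c).mul hR
    simpa using this
  · intro al hal
    apply hs al
    rw [mem_support_iff] at hal ⊢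
    intro h0
    apply hal
    rw [coeff_C_mul, h0, mul_zero]

lemma Dv.sum {F : MvPolynomial (Fin 3) L} {d : ℕ} {ι : Type*} (s : Finset ι)
    (P : ι → MvPolynomial (Fin 3) L) (h : ∀ i ∈ s, Dv F d (P i)) : Dv F d (∑ i ∈ s, P i) := by
  classical
  induction s using Finset.induction_on with
  | empty => simpa using Dv.zero F d
  | insert a s ha ih =>
    rw [Finset.sum_insert ha]
    exact (h a (Finset.mem_insert_self _ _)).add
      (ih fun i hi => h i (Finset.mem_insert_of_mem hi))

lemma Dv.mul_left {F : MvPolynomial (Fin 3) L} {d : ℕ} {Q : MvPolynomial (Fin 3) L}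
    (hQ : Q.IsHomogeneous d) : Dv F d (F * Q) :=
  ⟨Q, 0, hQ, isHomogeneous_zero _ _ _, by simp, by simp⟩

lemma degree_fin3 (al : Fin 3 →₀ ℕ) : al.degree = al 0 + al 1 + al 2 := by
  rw [Finsupp.degree_eq_sum, Fin.sum_univ_three]

lemma degree_of_weight {al : Fin 3 →₀ ℕ} {n : ℕ} (h : Finsupp.weight 1 al = n) :
    al.degree = n := by
  rw [Finsupp.degree_eq_weight_one]
  exact h

lemma Dv.monomial (F : MvPolynomial (Fin 3) L) (hF : F.IsHomogeneous 3)
    (h1 : F.coeff (Finsupp.single 1 3) ≠ 0) (d : ℕ) :
    ∀ n : ℕ, ∀ al : Fin 3 →₀ ℕ, al 1 = n → al.degree = d + 3 →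
      Dv F d (MvPolynomial.monomial al 1) := by
  intro n
  induction n using Nat.strong_induction_on with
  | _ n ih =>
    intro al hn hd
    by_cases h2 : n ≤ 2
    · refine ⟨0, MvPolynomial.monomial al 1, isHomogeneous_zero _ _ _,
        isHomogeneous_monomial _ hd, ?_, by simp⟩
      intro be hbe
      have := support_monomial_subset hbe
      rw [Finset.mem_singleton] at this
      subst this
      omega
    · push Not at h2
      obtain ⟨be, hbe⟩ : ∃ be : Fin 3 →₀ ℕ, al = be + Finsupp.single 1 3 := by
        refine ⟨al - Finsupp.single 1 3, ?_⟩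
        ext i
        by_cases hi : i = 1
        · subst hi
          simp
          omega
        · simp [Ne.symm hi]
      have hbd : be.degree = d := by
        have := hd
        rw [hbe, degree_fin3] at this
        rw [degree_fin3]
        simp at this
        omega
      have hb1 : be 1 + 3 = n := by
        rw [hbe] at hn
        simpa using hn
      set c := F.coeff (Finsupp.single 1 3) with hc
      have hsum : F * MvPolynomial.monomial be 1 = ∑ ga ∈ F.support,
          C (F.coeff ga) * MvPolynomial.monomial (ga + be) 1 := by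
        conv_lhs => rw [F.as_sum]
        rw [Finset.sum_mul]
        refine Finset.sum_congr rfl fun ga _ => ?_
        rw [monomial_mul, C_mul_monomial]
      have hmem : Finsupp.single 1 3 ∈ F.support := mem_support_iff.2 h1
      rw [← Finset.add_sum_erase _ _ hmem] at hsum
      have hal : MvPolynomial.monomial al (1 : L) =
          F * (C c⁻¹ * MvPolynomial.monomial be 1) +
          ∑ ga ∈ F.support.erase (Finsupp.single 1 3),
            C (-(c⁻¹ * F.coeff ga)) * MvPolynomial.monomial (ga + be) 1 := by
        have e1 : F * (C c⁻¹ * MvPolynomial.monomial be (1 : L)) =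
            C c⁻¹ * (F * MvPolynomial.monomial be 1) := by ring
        rw [e1, hsum, mul_add, ← mul_assoc, ← C_mul, inv_mul_cancel₀ h1, C_1, one_mul, add_assoc,
          Finset.mul_sum, ← Finset.sum_add_distrib, Finset.sum_eq_zero, add_zero, hbe, add_comm be]
        intro ga _
        rw [← mul_assoc, ← C_mul, ← add_mul, ← C_add, add_neg_cancel, C_0, zero_mul]
      rw [hal]
      refine (Dv.mul_left ?_).add (Dv.sum _ _ fun ga hga => Dv.cmul ?_ _)
      · have := (isHomogeneous_C (Fin 3) c⁻¹).mul
          (isHomogeneous_monomial (1 : L) hbd)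
        simpa using this
      · rw [Finset.mem_erase] at hga
        have hgd : ga.degree = 3 := by
          exact degree_of_weight (hF (mem_support_iff.1 hga.2))
        have hg1 : ga 1 ≤ 2 := by
          by_contra hcon
          push Not at hcon
          apply hga.1
          have h3 := degree_fin3 ga
          ext i
          fin_cases i
          · simp; omega
          · simp; omega
          · simp; omega
        refine ih ((ga + be) 1) ?_ _ rfl ?_
        · simp; omega
        · rw [map_add, hgd, hbd, add_comm]

lemma Dv.of_homogeneous (F : MvPolynomial (Fin 3) L) (hF : F.IsHomogeneous 3)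
    (h1 : F.coeff (Finsupp.single 1 3) ≠ 0) (d : ℕ) (P : MvPolynomial (Fin 3) L)
    (hP : P.IsHomogeneous (d + 3)) : Dv F d P := by
  rw [P.as_sum]
  refine Dv.sum _ _ fun al hal => ?_
  have : MvPolynomial.monomial al (P.coeff al) = C (P.coeff al) * MvPolynomial.monomial al 1 := by
    rw [C_mul_monomial, mul_one]
  rw [this]
  refine Dv.cmul (Dv.monomial F hF h1 d _ al rfl ?_) _
  exact degree_of_weight (hP (mem_support_iff.1 hal))

theorem exists_digits {L : Type*} [Field L] (F : MvPolynomial (Fin 3) L)
    (hF : F.IsHomogeneous 3) (h1 : F.coeff (Finsupp.single 1 3) ≠ 0) (b : ℕ)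
    (P : MvPolynomial (Fin 3) L) (hP : P.IsHomogeneous (3 * b)) :
    ∃ G : ℕ → MvPolynomial (Fin 3) L, (∀ j, (G j).IsHomogeneous (3 * j)) ∧
      (∀ j, ∀ al ∈ (G j).support, al 1 ≤ 2) ∧
      P = ∑ j ∈ Finset.range (b + 1), F ^ (b - j) * G j := by
  induction b generalizing P with
  | zero =>
    refine ⟨fun j => if j = 0 then P else 0, ?_, ?_, by simp⟩
    · intro j
      by_cases h : j = 0
      · subst h; simpa using hP
      · simp only [h, if_false]; exact isHomogeneous_zero _ _ _
    · intro j al hal
      by_cases h : j = 0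
      · subst h
        simp only [if_true] at hal
        have h3 := degree_fin3 al
        have h4 : al.degree = 3 * 0 := degree_of_weight (hP (mem_support_iff.1 hal))
        omega
      · simp [h] at hal
  | succ b ih =>
    have hP' : P.IsHomogeneous (3 * b + 3) := by
      have : 3 * (b + 1) = 3 * b + 3 := by ring
      rwa [this] at hP
    obtain ⟨Q, R, hQ, hR, hs, hPQ⟩ := Dv.of_homogeneous F hF h1 (3 * b) P hP'
    obtain ⟨G, hG, hGs, hQG⟩ := ih Q hQ
    refine ⟨Function.update G (b + 1) R, ?_, ?_, ?_⟩
    · intro j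
      by_cases h : j = b + 1
      · subst h
        rw [Function.update_self]
        have : 3 * (b + 1) = 3 * b + 3 := by ring
        rwa [this]
      · rw [Function.update_of_ne h]
        exact hG j
    · intro j
      by_cases h : j = b + 1
      · subst h
        rw [Function.update_self]
        exact hs
      · rw [Function.update_of_ne h]
        exact hGs j
    · rw [Finset.sum_range_succ, Function.update_self, Nat.sub_self, pow_zero, one_mul, hPQ, hQG,
        Finset.mul_sum]
      congr 1
      refine Finset.sum_congr rfl fun j hj => ?_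
      have hj' : j < b + 1 := Finset.mem_range.1 hj
      rw [Function.update_of_ne (by omega), ← mul_assoc, ← pow_succ']
      congr 2
      omega

end Vale.Agent.P279.H693
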